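import Vale.Agent.P323.M.Chain
import Vale.Agent.P323.N.Fin

open Vale.Agent.P323

universe u

/-- The partition principle and the axiom of choice in permutation models of ZFA: intervals of
subgroups, conjugates above a small group, definable closures of finite supports. -/
theorem Vale.Agent.Results.P323.PermModelsE.result :
    (∀ (G : Type u) [Group G] (F : NormalFilter G),
      (∃ K : Subgroup G, F.mem K ∧ ∀ V : Subgroup G, F.mem V →
        ∃ D : Subgroup G, F.mem D ∧ D ≤ V ∧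
          Cardinal.mk {L : Subgroup G // D ≤ L ∧
            ∃ h ∈ K, ∀ x, x ∈ L ↔ h⁻¹ * x * h ∈ D} < Cardinal.continuum.{u}) →
      (PP F ↔ AC F)) ∧
    (∀ (G A : Type u) [Group G] [MulAction G A] (I : SuppIdeal G A),
      (∀ e, I.mem e → e.Finite) →
      (∃ e₀ : Set A, I.mem e₀ ∧ ∀ e, I.mem e → e₀ ⊆ e →
        Cardinal.mk {a : A // (∃ g : G, (∀ b ∈ e₀, g • b = b) ∧ ∃ b ∈ e, g • b = a) ∧
          ∀ k : G, (∀ b ∈ e, k • b = b) → k • a = a} < Cardinal.continuum.{u}) →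
      (PP (suppFilter I) ↔ AC (suppFilter I))) ∧
    (∀ (G : Type u) [Group G] (F : NormalFilter G),
      (∃ K : Subgroup G, F.mem K ∧ ∀ V : Subgroup G, F.mem V →
        ∃ D : Subgroup G, F.mem D ∧ D ≤ V ∧
          (Cardinal.mk {P : Subgroup G // D ≤ P ∧ P ≤ K} < Cardinal.continuum.{u} ∨
            ¬ ∃ q : ℚ → Subgroup G, StrictMono q ∧ ∀ r, D ≤ q r ∧ q r ≤ K)) →
      (WOChoice F ↔ AC F) ∧ (PP F ↔ AC F)) := by
  have key : ∀ (G : Type u) [Group G] (F : NormalFilter G),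
      (∃ K : Subgroup G, F.mem K ∧ ∀ V : Subgroup G, F.mem V →
        ∃ D : Subgroup G, F.mem D ∧ D ≤ V ∧
          Cardinal.mk {L : Subgroup G // D ≤ L ∧ ∃ h ∈ K, L = cj h D} <
            Cardinal.continuum.{u}) → (PP F ↔ AC F) := by
    intro G _ F h
    refine ⟨fun hPP => ?_, fun hAC => pp_of_ac hAC⟩
    obtain ⟨E, hE, hl⟩ := least_of_fewConj hPP (fun H hH => univ hPP H hH) h
    exact ac_of_least hE hl
  refine ⟨?_, ?_, ?_⟩
  · rintro G _ F ⟨K, hK, h⟩
    apply key G F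
    refine ⟨K, hK, fun V hV => ?_⟩
    obtain ⟨D, hD, hDV, hc⟩ := h V hV
    refine ⟨D, hD, hDV, ?_⟩
    have e : ∀ L : Subgroup G, (D ≤ L ∧ ∃ h ∈ K, L = cj h D) ↔
        (D ≤ L ∧ ∃ h ∈ K, ∀ x, x ∈ L ↔ h⁻¹ * x * h ∈ D) := by
      intro L
      refine and_congr_right fun _ => ?_
      refine exists_congr fun k => and_congr_right fun _ => ?_
      constructor
      · rintro rfl x
        exact mem_cj
      · intro h1
        ext x
        rw [h1 x, mem_cj]
    rwa [show {L : Subgroup G // D ≤ L ∧ ∃ h ∈ K, L = cj h D} =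
      {L : Subgroup G // D ≤ L ∧ ∃ h ∈ K, ∀ x, x ∈ L ↔ h⁻¹ * x * h ∈ D} from
        congrArg Subtype (funext fun L => propext (e L))]
  · rintro G A _ _ I hfin ⟨e₀, he₀, h⟩
    exact key G _ (fewConj_supp hfin he₀ h)
  · rintro G _ F h
    exact fin_least fun hU => least_of_interval hU h
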