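import Vale.Agent.P323.H258.Dich

open Vale.Agent.P323 Vale.Agent.P323.H258

universe u

/-- The partition principle and the axiom of choice in permutation models of ZFA: a counting
criterion, independent sets in supports, intersections of conjugates, perfect stabilizers,
residual open subgroups, infinite cyclic quotients, unions of increasing sequences. -/
theorem Vale.Agent.Results.P323.PermModelsF.result :
    -- (A) counting criterion
    (∀ (G : Type u) [Group G] (F : NormalFilter G),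
      (∃ K : Subgroup G, F.mem K ∧ ∀ V₀ : Subgroup G, F.mem V₀ →
        ∃ D : Subgroup G, F.mem D ∧ D ≤ V₀ ∧ ∀ K₁ : Subgroup G, F.mem K₁ →
          ∃ V : Subgroup G, F.mem V ∧
            Cardinal.mk {L : Subgroup G // V ≤ L ∧ ∃ h ∈ K, ∀ x, x ∈ L ↔ h⁻¹ * x * h ∈ D} <
              Cardinal.mk {P : Subgroup G // V ≤ P ∧ P ≤ K₁}) →
      (PP F ↔ AC F)) ∧
    -- (B) counting criterion for supports
    (∀ (G A : Type u) [Group G] [MulAction G A] (I : SuppIdeal G A),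
      (∃ e₀ : Set A, I.mem e₀ ∧ ∀ e, I.mem e → e₀ ⊆ e → ∀ e₁, I.mem e₁ →
        ∃ v, I.mem v ∧
          Cardinal.mk {f : e → A //
            (∃ g : G, (∀ b ∈ e₀, g • b = b) ∧ ∀ b : e, f b = g • (b : A)) ∧
              ∀ b : e, ∀ k : G, (∀ a ∈ v, k • a = a) → k • f b = f b} <
          Cardinal.mk {T : Set A // e₁ ⊆ T ∧
            (∀ a ∈ T, ∀ k : G, (∀ b ∈ v, k • b = b) → k • a = a) ∧
              ∀ a, (∀ k : G, (∀ b ∈ T, k • b = b) → k • a = a) → a ∈ T}) →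
      (PP (suppFilter I) ↔ AC (suppFilter I))) ∧
    -- (C) independent sets
    (∀ (G A : Type u) [Group G] [MulAction G A] (I : SuppIdeal G A),
      (∀ e e₁, I.mem e → I.mem e₁ → ∃ v, I.mem v ∧ ∃ S : Set A,
        (∀ a ∈ e₁ ∪ S, ∀ k : G, (∀ b ∈ v, k • b = b) → k • a = a) ∧
        (∀ a ∈ S, ∃ k : G, (∀ b ∈ e₁, k • b = b) ∧ (∀ b ∈ S, b ≠ a → k • b = b) ∧ k • a ≠ a) ∧
        Cardinal.mk {a : A // ∀ k : G, (∀ b ∈ v, k • b = b) → k • a = a} ^ Cardinal.mk e <
          2 ^ Cardinal.mk S) →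
      (PP (suppFilter I) ↔ AC (suppFilter I))) ∧
    -- (D) intersections of conjugates
    (∀ (G : Type u) [Group G] (F : NormalFilter G),
      (∃ K : Subgroup G, F.mem K ∧ ∀ V : Subgroup G, F.mem V →
        ∃ D : Subgroup G, F.mem D ∧ D ≤ V ∧
          ((∀ g ∈ K, Resid F (D ⊓ cj g D)) ∨ (∀ g ∈ K, ¬ CycQuot F (D ⊓ cj g D)) ∨
            ∀ g ∈ K, ¬ IncUnion F (D ⊓ cj g D))) →
      (PP F ↔ AC F)) ∧
    -- (E) conjugates closed under intersections
    (∀ (G : Type u) [Group G] (F : NormalFilter G),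
      (∃ K : Subgroup G, F.mem K ∧ ∀ V : Subgroup G, F.mem V →
        ∃ D : Subgroup G, F.mem D ∧ D ≤ V ∧ ∀ g ∈ K, ∃ k : G, D ⊓ cj g D = cj k D) →
      (PP F ↔ AC F)) ∧
    -- (F) stabilizers of supports which are perfect or of uncountable cofinality
    (∀ (G A : Type u) [Group G] [MulAction G A] (I : SuppIdeal G A),
      (∃ e₀, I.mem e₀ ∧ ∀ e, I.mem e → ∃ e', I.mem e' ∧ e ⊆ e' ∧
        ((∀ g : G, (∀ a ∈ e₀, g • a = a) → ∀ H : Subgroup G,
          (∀ k, k ∈ H ↔ (∀ a ∈ e', k • a = a) ∧ ∀ a ∈ e', k • g • a = g • a) → ⁅H, H⁆ = H) ∨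
        ∀ g : G, (∀ a ∈ e₀, g • a = a) →
          ¬ ∃ U : ℕ → Subgroup G, StrictMono U ∧
            ∀ k, ((∀ a ∈ e', k • a = a) ∧ ∀ a ∈ e', k • g • a = g • a) ↔ ∃ n, k ∈ U n)) →
      (PP (suppFilter I) ↔ AC (suppFilter I))) ∧
    -- (G) proper open normal subgroups
    (∀ (G : Type u) [Group G] (F : NormalFilter G),
      (∃ K : Subgroup G, F.mem K ∧ ∀ D : Subgroup G, F.mem D → D ≤ K →
        (∃ V : Subgroup G, F.mem V ∧ ¬ D ≤ V) → Resid F D) →
      (WOChoice F ↔ AC F) ∧ (PP F ↔ AC F)) ∧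
    -- (H) no infinite cyclic quotients
    (∀ (G : Type u) [Group G] (F : NormalFilter G),
      (∃ K : Subgroup G, F.mem K ∧ ∀ P : Subgroup G, F.mem P → P ≤ K → ¬ CycQuot F P) →
      (WOChoice F ↔ AC F) ∧ (PP F ↔ AC F)) ∧
    -- (I) no unions of strictly increasing sequences
    (∀ (G : Type u) [Group G] (F : NormalFilter G),
      (∃ K : Subgroup G, F.mem K ∧ ∀ P : Subgroup G, F.mem P → P ≤ K → ¬ IncUnion F P) →
      (WOChoice F ↔ AC F) ∧ (PP F ↔ AC F)) := by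
  refine ⟨?_, ?_, ?_, ?_, ?_, ?_, ?_, ?_, ?_⟩
  · intro G _ F h
    exact pp_count' F h
  · intro G A _ _ I h
    exact pp_count _ (count_supp h)
  · intro G A _ _ I h
    exact pp_count _ (count_supp (indep_supp h))
  · intro G _ F h
    exact pp_dich F h
  · intro G _ F h
    exact pp_inter' F h
  · intro G A _ _ I h
    exact pp_perfect I h
  · intro G _ F h
    exact woc_resid F h
  · rintro G _ F ⟨K, hK, h⟩
    refine woc_cyc F ⟨K, hK, fun P N hP hPK hN hNP hn hg => ?_⟩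
    exact h P hP hPK ⟨N, hN, hNP, hn, hg⟩
  · intro G _ F h
    exact woc_inc F h
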